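import Mathlib

/-! Montel's theorem (sequential form) for uniformly bounded holomorphic functions on an open
subset of `ℂ`. -/

open Filter Topology Set Metric

namespace Vale.Agent.Lib.P274

/-- uniform local Lipschitz bound from the Schwarz lemma -/
lemma dist_le_of_bounded {U : Set ℂ} {f : ℂ → ℂ} (hf : DifferentiableOn ℂ f U) {M : ℝ}
    (hM : ∀ z ∈ U, ‖f z‖ ≤ M) {c z : ℂ} {r : ℝ} (hball : ball c r ⊆ U) (hz : z ∈ ball c r) :
    dist (f z) (f c) ≤ 2 * M / r * dist z c := by
  have hr : 0 < r := nonempty_ball.1 ⟨z, hz⟩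
  have hc : c ∈ U := hball (mem_ball_self hr)
  apply Complex.dist_le_div_mul_dist_of_mapsTo_ball (hf.mono hball) _ hz
  intro w hw
  rw [mem_closedBall, dist_eq_norm]
  calc ‖f w - f c‖ ≤ ‖f w‖ + ‖f c‖ := norm_sub_le _ _
    _ ≤ M + M := add_le_add (hM w (hball hw)) (hM c hc)
    _ = 2 * M := by ring

theorem montel {U : Set ℂ} (hU : IsOpen U) (f : ℕ → ℂ → ℂ)
    (hf : ∀ n, DifferentiableOn ℂ (f n) U) (M : ℝ) (hM : ∀ n, ∀ z ∈ U, ‖f n z‖ ≤ M) :
    ∃ (φ : ℕ → ℕ) (g : ℂ → ℂ), StrictMono φ ∧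
      TendstoLocallyUniformlyOn (fun n => f (φ n)) g atTop U := by
  -- countable dense subset
  obtain ⟨Q, hQU, hQc, hQd⟩ :=
    (TopologicalSpace.IsSeparable.of_separableSpace U).exists_countable_dense_subset
  have : Countable Q := hQc.to_subtype
  -- diagonal subsequence
  have hcomp : IsCompact (univ.pi (fun _ : Q => closedBall (0 : ℂ) M)) :=
    isCompact_univ_pi (fun _ => isCompact_closedBall 0 M)
  obtain ⟨a, -, φ, hφ, ha⟩ := hcomp.tendsto_subseq (x := fun n (q : Q) => f n q) (by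
    intro n q _
    rw [mem_closedBall_zero_iff]
    exact hM n q (hQU q.2))
  rw [tendsto_pi_nhds] at ha
  set F : ℕ → ℂ → ℂ := fun n => f (φ n) with hF
  have hFd : ∀ n, DifferentiableOn ℂ (F n) U := fun n => hf (φ n)
  have hFM : ∀ n, ∀ z ∈ U, ‖F n z‖ ≤ M := fun n => hM (φ n)
  have hM0 : ∀ z ∈ U, 0 ≤ M := fun z hz => (norm_nonneg _).trans (hM 0 z hz)
  -- key: near every point of `U` there is a good approximation by a point of `Q`
  have key : ∀ x ∈ U, ∀ ε > 0, ∃ δ > 0, ∃ q : Q, ∀ y ∈ ball x δ, y ∈ U ∧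
      ∀ n, dist (F n y) (F n q) ≤ ε := by
    intro x hx ε hε
    obtain ⟨r, hr, hrU⟩ := Metric.isOpen_iff.1 hU x hx
    have hM' := hM0 x hx
    set L : ℝ := 2 * M / (r / 2) with hL
    have hL0 : 0 ≤ L := by positivity
    set δ : ℝ := min (r / 4) (ε / (2 * (L + 1))) with hδ
    have hδ0 : 0 < δ := by positivity
    obtain ⟨q, hq, hqx⟩ := Metric.mem_closure_iff.1 (hQd hx) δ hδ0
    refine ⟨δ, hδ0, ⟨q, hq⟩, ?_⟩
    intro y hy
    have hy' : dist y x < δ := hy
    have h1 : δ ≤ r / 4 := min_le_left _ _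
    have h2 : δ ≤ ε / (2 * (L + 1)) := min_le_right _ _
    have hyq : dist y q < 2 * δ := by
      calc dist y q ≤ dist y x + dist x q := dist_triangle _ _ _
        _ < δ + δ := add_lt_add hy' hqx
        _ = 2 * δ := by ring
    have hball : ball q (r / 2) ⊆ U := by
      intro w hw
      apply hrU
      rw [mem_ball] at hw ⊢
      calc dist w x ≤ dist w q + dist q x := dist_triangle _ _ _
        _ < r / 2 + δ := add_lt_add hw (by rwa [dist_comm])
        _ ≤ r := by linarith
    have hyb : y ∈ ball q (r / 2) := by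
      rw [mem_ball]; linarith
    refine ⟨hball hyb, fun n => ?_⟩
    calc dist (F n y) (F n q) ≤ L * dist y q := dist_le_of_bounded (hFd n) (hFM n) hball hyb
      _ ≤ L * (2 * δ) := by gcongr
      _ ≤ (L + 1) * (2 * (ε / (2 * (L + 1)))) := by gcongr; linarith
      _ = ε := by field_simp
  -- pointwise Cauchy
  have hcauchy : ∀ x ∈ U, CauchySeq (fun n => F n x) := by
    intro x hx
    rw [Metric.cauchySeq_iff]
    intro ε hε
    obtain ⟨δ, hδ, q, hq⟩ := key x hx (ε / 3) (by positivity)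
    have h1 := (hq x (mem_ball_self hδ)).2
    have h2 : CauchySeq (fun n => F n q) := (ha q).cauchySeq
    rw [Metric.cauchySeq_iff] at h2
    obtain ⟨N, hN⟩ := h2 (ε / 3) (by positivity)
    refine ⟨N, fun m hm n hn => ?_⟩
    calc dist (F m x) (F n x) ≤ dist (F m x) (F m q) + dist (F m q) (F n q) + dist (F n q) (F n x) :=
          dist_triangle4 _ _ _ _
      _ < ε / 3 + ε / 3 + ε / 3 := by
          have := hN m hm n hn
          have h3 := h1 m
          have h4 := h1 n
          rw [dist_comm] at h4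
          linarith
      _ = ε := by ring
  have hlim : ∀ x ∈ U, ∃ l, Tendsto (fun n => F n x) atTop (𝓝 l) := fun x hx =>
    cauchySeq_tendsto_of_complete (hcauchy x hx)
  classical
  set g : ℂ → ℂ := fun x => if hx : x ∈ U then (hlim x hx).choose else 0 with hg
  have hgl : ∀ x ∈ U, Tendsto (fun n => F n x) atTop (𝓝 (g x)) := by
    intro x hx
    simp only [hg, dif_pos hx]
    exact (hlim x hx).choose_spec
  refine ⟨φ, g, hφ, ?_⟩
  rw [Metric.tendstoLocallyUniformlyOn_iff]
  intro ε hε x hx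
  obtain ⟨δ, hδ, q, hq⟩ := key x hx (ε / 4) (by positivity)
  refine ⟨ball x δ, mem_nhdsWithin_of_mem_nhds (ball_mem_nhds x hδ), ?_⟩
  have hqU : (q : ℂ) ∈ U := hQU q.2
  have h2 := Metric.tendsto_atTop.1 (hgl q hqU) (ε / 4) (by positivity)
  obtain ⟨N, hN⟩ := h2
  filter_upwards [eventually_ge_atTop N] with n hn y hy
  obtain ⟨hyU, hyq⟩ := hq y hy
  have h3 : dist (g y) (g q) ≤ ε / 4 :=
    le_of_tendsto' ((hgl y hyU).dist (hgl q hqU)) hyq
  calc dist (g y) (F n y) ≤ dist (g y) (g q) + dist (g q) (F n q) + dist (F n q) (F n y) :=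
        dist_triangle4 _ _ _ _
    _ < ε / 4 + ε / 4 + ε / 4 + ε / 4 := by
        have h4 := hN n hn
        rw [dist_comm] at h4
        have h5 := hyq n
        rw [dist_comm] at h5
        linarith
    _ = ε := by ring

end Vale.Agent.Lib.P274
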