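import Mathlib
import Vale.Agent.Lib.P274.Montel

/-! The limiting argument: extremal sequences give a biholomorphism with the unit disc. -/

open Filter Topology Set Metric

namespace Vale.Agent.Lib.P274

lemma tlu_comp_subseq {F : ℕ → ℂ → ℂ} {g : ℂ → ℂ} {s : Set ℂ}
    (h : TendstoLocallyUniformlyOn F g atTop s) {b : ℕ → ℕ} (hb : StrictMono b) :
    TendstoLocallyUniformlyOn (fun n => F (b n)) g atTop s := by
  intro u hu x hx
  obtain ⟨t, ht, h'⟩ := h u hu x hx
  exact ⟨t, ht, hb.tendsto_atTop.eventually h'⟩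

theorem disc_of_sequences {U : Set ℂ} (hUo : IsOpen U) (hUc : IsPreconnected U) {M : ℝ}
    (hUb : ∀ z ∈ U, ‖z‖ ≤ M)
    (taut : ∀ (φ : ℕ → ℂ → ℂ) (g : ℂ → ℂ), (∀ n, DifferentiableOn ℂ (φ n) (ball 0 1)) →
        (∀ n, MapsTo (φ n) (ball 0 1) U) →
        TendstoLocallyUniformlyOn φ g atTop (ball 0 1) → g 0 ∈ U → MapsTo g (ball 0 1) U)
    (f φ : ℕ → ℂ → ℂ) (k : ℕ → ℂ) (k' : ℂ) (hk' : k' ∈ U) (hk : Tendsto k atTop (𝓝 k'))
    (hfd : ∀ n, DifferentiableOn ℂ (f n) U) (hfm : ∀ n, MapsTo (f n) U (ball 0 1))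
    (hf0 : ∀ n, f n (k n) = 0)
    (hφd : ∀ n, DifferentiableOn ℂ (φ n) (ball 0 1)) (hφm : ∀ n, MapsTo (φ n) (ball 0 1) U)
    (hφ0 : ∀ n, φ n 0 = k n)
    (hder : Tendsto (fun n => ‖deriv (f n) (k n)‖ * ‖deriv (φ n) 0‖) atTop (𝓝 1)) :
    ∃ Φ Ψ : ℂ → ℂ, DifferentiableOn ℂ Φ (ball 0 1) ∧ DifferentiableOn ℂ Ψ U ∧
      MapsTo Φ (ball 0 1) U ∧ MapsTo Ψ U (ball 0 1) ∧
      (∀ ζ ∈ ball (0 : ℂ) 1, Ψ (Φ ζ) = ζ) ∧ (∀ z ∈ U, Φ (Ψ z) = z) := by
  have h0 : (0 : ℂ) ∈ ball (0 : ℂ) 1 := mem_ball_self one_pos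
  obtain ⟨a, F, ha, hF⟩ := montel hUo f hfd 1 (fun n z hz => by
    have := hfm n hz
    rw [mem_ball_zero_iff] at this
    exact this.le)
  obtain ⟨b, Φ, hb, hΦ⟩ := montel isOpen_ball (fun n => φ (a n)) (fun n => hφd (a n)) M
    (fun n z hz => hUb _ (hφm (a n) hz))
  set c : ℕ → ℕ := fun n => a (b n) with hc
  have hcm : StrictMono c := ha.comp hb
  have hct : Tendsto c atTop atTop := hcm.tendsto_atTop
  have hF' : TendstoLocallyUniformlyOn (fun n => f (c n)) F atTop U := tlu_comp_subseq hF hb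
  have hFd : DifferentiableOn ℂ F U :=
    hF'.differentiableOn (Eventually.of_forall (fun n => hfd (c n))) hUo
  have hΦd : DifferentiableOn ℂ Φ (ball 0 1) :=
    hΦ.differentiableOn (Eventually.of_forall (fun n => hφd (c n))) isOpen_ball
  have hkc : Tendsto (fun n => k (c n)) atTop (𝓝 k') := hk.comp hct
  have hkU : ∀ n, k n ∈ U := fun n => by rw [← hφ0 n]; exact hφm n h0
  have hkc' : Tendsto (fun n => k (c n)) atTop (𝓝[U] k') :=
    tendsto_nhdsWithin_iff.2 ⟨hkc, Eventually.of_forall (fun n => hkU (c n))⟩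
  have hΦ0 : Φ 0 = k' := by
    have h1 := hΦ.tendsto_at h0
    simp only [hφ0] at h1
    exact tendsto_nhds_unique h1 hkc
  have hΦm : MapsTo Φ (ball 0 1) U :=
    taut _ Φ (fun n => hφd (c n)) (fun n => hφm (c n)) hΦ (by rw [hΦ0]; exact hk')
  have hFk : F k' = 0 := by
    have h1 := hF'.tendsto_comp (hFd.continuousOn k' hk') hk' hkc'
    simp only [hf0] at h1
    exact (tendsto_nhds_unique h1 tendsto_const_nhds)
  have hdF : Tendsto (fun n => deriv (f (c n)) (k (c n))) atTop (𝓝 (deriv F k')) := by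
    have h1 := hF'.deriv (Eventually.of_forall (fun n => hfd (c n))) hUo
    exact h1.tendsto_comp ((hFd.deriv hUo).continuousOn k' hk') hk' hkc'
  have hdΦ : Tendsto (fun n => deriv (φ (c n)) 0) atTop (𝓝 (deriv Φ 0)) := by
    have h1 := hΦ.deriv (Eventually.of_forall (fun n => hφd (c n))) isOpen_ball
    exact h1.tendsto_at h0
  have hprod : ‖deriv F k'‖ * ‖deriv Φ 0‖ = 1 :=
    tendsto_nhds_unique (hdF.norm.mul hdΦ.norm) (hder.comp hct)
  have hFle : ∀ z ∈ U, ‖F z‖ ≤ 1 := by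
    intro z hz
    refine le_of_tendsto' (hF'.tendsto_at hz).norm (fun n => ?_)
    have := hfm (c n) hz
    rw [mem_ball_zero_iff] at this
    exact this.le
  have hdF0 : deriv F k' ≠ 0 := by
    intro h
    rw [h] at hprod
    simp at hprod
  have hFlt : ∀ z ∈ U, ‖F z‖ < 1 := by
    intro z hz
    by_contra hcon
    have heq : ‖F z‖ = 1 := le_antisymm (hFle z hz) (not_lt.1 hcon)
    have hmax : IsMaxOn (norm ∘ F) U z := by
      intro w hw
      simp only [Function.comp, mem_ofPred_eq, heq]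
      exact hFle w hw
    have hconst := Complex.eqOn_of_isPreconnected_of_isMaxOn_norm hUc hUo hFd hz hmax
    apply hdF0
    have : F =ᶠ[𝓝 k'] fun _ => F z := by
      filter_upwards [hUo.mem_nhds hk'] with w hw
      exact hconst hw
    rw [this.deriv_eq]
    simp
  set g : ℂ → ℂ := F ∘ Φ with hg
  have hgd : DifferentiableOn ℂ g (ball 0 1) := hFd.comp hΦd hΦm
  have hg0 : g 0 = 0 := by simp [hg, hΦ0, hFk]
  have hgm : MapsTo g (ball 0 1) (closedBall (g 0) 1) := by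
    intro ζ hζ
    rw [hg0, mem_closedBall_zero_iff]
    exact hFle _ (hΦm hζ)
  have hdg : deriv g 0 = deriv F k' * deriv Φ 0 := by
    have h1 : HasDerivAt F (deriv F k') (Φ 0) := by
      rw [hΦ0]
      exact (hFd.differentiableAt (hUo.mem_nhds hk')).hasDerivAt
    have h2 : HasDerivAt Φ (deriv Φ 0) 0 :=
      (hΦd.differentiableAt (isOpen_ball.mem_nhds h0)).hasDerivAt
    exact (h1.comp 0 h2).deriv
  set cc : ℂ := deriv g 0 with hcc
  have hccn : ‖cc‖ = 1 := by rw [hdg, norm_mul, hprod]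
  have hcc0 : cc ≠ 0 := by
    intro h
    rw [h] at hccn
    simp at hccn
  have haff := Complex.affine_of_mapsTo_ball_of_norm_dslope_eq_div hgd hgm h0
    (by rw [dslope_same, ← hcc, hccn]; norm_num)
  have hgz : ∀ ζ ∈ ball (0 : ℂ) 1, F (Φ ζ) = ζ * cc := by
    intro ζ hζ
    have := haff hζ
    rw [hg0, dslope_same, ← hcc] at this
    simpa [hg] using this
  set Ψ : ℂ → ℂ := fun z => cc⁻¹ * F z with hΨ
  have hΨd : DifferentiableOn ℂ Ψ U := hFd.const_mul _
  have hΨm : MapsTo Ψ U (ball 0 1) := by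
    intro z hz
    rw [mem_ball_zero_iff]
    simp only [hΨ, norm_mul, norm_inv, hccn, inv_one, one_mul]
    exact hFlt z hz
  have hΨΦ : ∀ ζ ∈ ball (0 : ℂ) 1, Ψ (Φ ζ) = ζ := by
    intro ζ hζ
    simp only [hΨ, hgz ζ hζ]
    field_simp
  refine ⟨Φ, Ψ, hΦd, hΨd, hΦm, hΨm, hΨΦ, ?_⟩
  have han1 : AnalyticOnNhd ℂ (Φ ∘ Ψ) U := (hΦd.comp hΨd hΨm).analyticOnNhd hUo
  have han2 : AnalyticOnNhd ℂ (fun z : ℂ => z) U := differentiableOn_id.analyticOnNhd hUo
  have hfreq : ∃ᶠ z in 𝓝[≠] k', (Φ ∘ Ψ) z = z := by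
    set s : ℕ → ℂ := fun j => ((1 : ℝ) / ((j : ℝ) + 2) : ℝ) with hs
    have hs_mem : ∀ j, s j ∈ ball (0 : ℂ) 1 := by
      intro j
      rw [mem_ball_zero_iff]
      simp only [hs, Complex.norm_real, Real.norm_eq_abs]
      rw [abs_of_pos (by positivity), div_lt_one (by positivity)]
      have : (0 : ℝ) ≤ j := Nat.cast_nonneg j
      linarith
    have hs_ne : ∀ j, s j ≠ 0 := by
      intro j
      simp only [hs]
      have : (0 : ℝ) < (1 : ℝ) / ((j : ℝ) + 2) := by positivity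
      exact_mod_cast this.ne'
    have hs_lim : Tendsto s atTop (𝓝 0) := by
      have h1 : Tendsto (fun j : ℕ => (1 : ℝ) / ((j : ℝ) + 2)) atTop (𝓝 0) := by
        have := tendsto_one_div_add_atTop_nhds_zero_nat (𝕜 := ℝ)
        have h2 := this.comp (tendsto_add_atTop_nat 1)
        refine h2.congr (fun j => ?_)
        simp only [Function.comp]
        push_cast
        ring_nf
      have h3 := (Complex.continuous_ofReal.tendsto 0).comp h1
      rw [Complex.ofReal_zero] at h3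
      exact h3
    have hw_lim : Tendsto (fun j => Φ (s j)) atTop (𝓝[≠] k') := by
      apply tendsto_nhdsWithin_iff.2
      constructor
      · have := (hΦd.differentiableAt (isOpen_ball.mem_nhds h0)).continuousAt.tendsto.comp hs_lim
        rwa [hΦ0] at this
      · refine Eventually.of_forall (fun j => ?_)
        intro h
        have h1 := hΨΦ (s j) (hs_mem j)
        rw [mem_singleton_iff.1 h] at h1
        simp only [hΨ, hFk, mul_zero] at h1
        exact hs_ne j h1.symm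
    refine hw_lim.frequently (Eventually.frequently (Eventually.of_forall (fun j => ?_)))
    simp only [Function.comp, hΨΦ (s j) (hs_mem j)]
  exact fun z hz => han1.eqOn_of_preconnected_of_frequently_eq han2 hUc hk' hfreq hz

end Vale.Agent.Lib.P274
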