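import Mathlib
import Vale.Agent.Lib.P274.Limit

/-! Tautness from cocompactness, and transport of extremal sequences to a compact set. -/

open Filter Topology Set Metric

namespace Vale.Agent.Lib.P274

variable {U : Set ℂ} {M : ℝ} {Γ : Set (ℂ → ℂ)} {K : Set ℂ}

lemma taut_of_cocompact (hUo : IsOpen U) (hUb : ∀ z ∈ U, ‖z‖ ≤ M)
    (hΓd : ∀ γ ∈ Γ, DifferentiableOn ℂ γ U) (hΓm : ∀ γ ∈ Γ, MapsTo γ U U)
    (hΓi : ∀ γ ∈ Γ, ∃ γ' ∈ Γ, (∀ z ∈ U, γ' (γ z) = z) ∧ (∀ z ∈ U, γ (γ' z) = z))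
    (hK : IsCompact K) (hKU : K ⊆ U) (hcov : ∀ z ∈ U, ∃ γ ∈ Γ, ∃ k ∈ K, γ k = z)
    (φ : ℕ → ℂ → ℂ) (g : ℂ → ℂ) (hφd : ∀ n, DifferentiableOn ℂ (φ n) (ball 0 1))
    (hφm : ∀ n, MapsTo (φ n) (ball 0 1) U)
    (hlim : TendstoLocallyUniformlyOn φ g atTop (ball 0 1)) (h0 : g 0 ∈ U) :
    MapsTo g (ball 0 1) U := by
  have h0m : (0 : ℂ) ∈ ball (0 : ℂ) 1 := mem_ball_self one_pos
  have hgc : ContinuousOn g (ball 0 1) :=
    hlim.continuousOn (Frequently.of_forall (fun n => (hφd n).continuousOn))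
  set S : Set ℂ := ball 0 1 ∩ g ⁻¹' U with hS
  have hSo : IsOpen S := hgc.isOpen_inter_preimage isOpen_ball hUo
  obtain ⟨δ, hδ, hδU⟩ := hK.exists_cthickening_subset_open hUo hKU
  have hM0 : 0 ≤ M := (norm_nonneg _).trans (hUb _ h0)
  have hsub : ball (0 : ℂ) 1 ⊆ S := by
    refine (convex_ball (0 : ℂ) 1).isPreconnected.subset_of_closure_inter_subset hSo
      ⟨0, h0m, h0m, h0⟩ ?_
    rintro ζs ⟨hcl, hζs⟩
    refine ⟨hζs, ?_⟩
    have hζs' : ‖ζs‖ < 1 := mem_ball_zero_iff.1 hζs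
    set ρ0 : ℝ := (1 - ‖ζs‖) / 2 with hρ0
    have hρ0p : 0 < ρ0 := by rw [hρ0]; linarith
    set L : ℝ := 2 * M / ρ0 with hL
    have hL0 : 0 ≤ L := by positivity
    set η : ℝ := min ρ0 (δ / (2 * (L + 1))) with hη
    have hηp : 0 < η := by positivity
    obtain ⟨ζ', hζ'S, hdist⟩ := Metric.mem_closure_iff.1 hcl η hηp
    have hη1 : η ≤ ρ0 := min_le_left _ _
    have hη2 : η ≤ δ / (2 * (L + 1)) := min_le_right _ _
    have hball : ball ζ' ρ0 ⊆ ball (0 : ℂ) 1 := by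
      intro w hw
      rw [mem_ball_zero_iff]
      rw [mem_ball, dist_eq_norm] at hw
      rw [dist_eq_norm] at hdist
      calc ‖w‖ = ‖(w - ζ') - (ζs - ζ') + ζs‖ := by congr 1; ring
        _ ≤ ‖w - ζ'‖ + ‖ζs - ζ'‖ + ‖ζs‖ := by
            refine (norm_add_le _ _).trans ?_
            gcongr
            exact norm_sub_le _ _
        _ < ρ0 + η + ‖ζs‖ := by linarith
        _ ≤ 1 := by rw [hρ0] at hη1 ⊢; linarith
    have hζsb : ζs ∈ ball ζ' ρ0 := by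
      rw [mem_ball]; linarith
    obtain ⟨γ, hγ, k, hk, hγk⟩ := hcov (g ζ') hζ'S.2
    obtain ⟨γ', hγ', hinv1, hinv2⟩ := hΓi γ hγ
    have hψ : ∀ n, dist (γ' (φ n ζs)) (γ' (φ n ζ')) ≤ L * dist ζs ζ' := by
      intro n
      exact dist_le_of_bounded (f := γ' ∘ φ n) (U := ball 0 1)
        ((hΓd γ' hγ').comp (hφd n) (hφm n))
        (fun z hz => hUb _ (hΓm γ' hγ' (hφm n hz))) hball hζsb
    have hψ' : ∀ n, dist (γ' (φ n ζs)) (γ' (φ n ζ')) ≤ δ / 2 := by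
      intro n
      calc dist (γ' (φ n ζs)) (γ' (φ n ζ')) ≤ L * dist ζs ζ' := hψ n
        _ ≤ (L + 1) * (δ / (2 * (L + 1))) := by
            gcongr
            · linarith
            · exact hdist.le.trans hη2
        _ = δ / 2 := by field_simp
    have hkU : k ∈ U := hKU hk
    have hlim1 : Tendsto (fun n => γ' (φ n ζ')) atTop (𝓝 k) := by
      have h1 : Tendsto (fun n => φ n ζ') atTop (𝓝 (g ζ')) := hlim.tendsto_at hζ'S.1
      have h2 : ContinuousAt γ' (g ζ') :=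
        ((hΓd γ' hγ').differentiableAt (hUo.mem_nhds hζ'S.2)).continuousAt
      have h3 := h2.tendsto.comp h1
      rw [← hγk, hinv1 k hkU] at h3
      exact h3
    have hev : ∀ᶠ n in atTop, γ' (φ n ζs) ∈ closedBall k δ := by
      filter_upwards [Metric.tendsto_nhds.1 hlim1 (δ / 2) (by positivity)] with n hn
      rw [mem_closedBall]
      calc dist (γ' (φ n ζs)) k ≤ dist (γ' (φ n ζs)) (γ' (φ n ζ')) + dist (γ' (φ n ζ')) k :=
            dist_triangle _ _ _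
        _ ≤ δ / 2 + δ / 2 := add_le_add (hψ' n) hn.le
        _ = δ := by ring
    have hBU : closedBall k δ ⊆ U := (closedBall_subset_cthickening hk δ).trans hδU
    have hcomp : IsCompact (γ '' closedBall k δ) :=
      (isCompact_closedBall k δ).image_of_continuousOn ((hΓd γ hγ).continuousOn.mono hBU)
    have hev2 : ∀ᶠ n in atTop, φ n ζs ∈ γ '' closedBall k δ := by
      filter_upwards [hev] with n hn
      exact ⟨_, hn, hinv2 _ (hφm n hζs)⟩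
    have hmem := hcomp.isClosed.mem_of_tendsto (hlim.tendsto_at hζs) hev2
    obtain ⟨w, hw, hwe⟩ := hmem
    rw [mem_preimage, ← hwe]
    exact hΓm γ hγ (hBU hw)
  exact fun ζ hζ => (hsub hζ).2

/-- If extremal sequences exist somewhere in `U`, and `U` has a cocompact family of automorphisms,
then `U` is biholomorphic to the unit disc. -/
theorem disc_of_cocompact (hUo : IsOpen U) (hUc : IsPreconnected U) (hUb : ∀ z ∈ U, ‖z‖ ≤ M)
    (hΓd : ∀ γ ∈ Γ, DifferentiableOn ℂ γ U) (hΓm : ∀ γ ∈ Γ, MapsTo γ U U)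
    (hΓi : ∀ γ ∈ Γ, ∃ γ' ∈ Γ, (∀ z ∈ U, γ' (γ z) = z) ∧ (∀ z ∈ U, γ (γ' z) = z))
    (hK : IsCompact K) (hKU : K ⊆ U) (hcov : ∀ z ∈ U, ∃ γ ∈ Γ, ∃ k ∈ K, γ k = z)
    (f φ : ℕ → ℂ → ℂ) (z : ℕ → ℂ)
    (hfd : ∀ n, DifferentiableOn ℂ (f n) U) (hfm : ∀ n, MapsTo (f n) U (ball 0 1))
    (hf0 : ∀ n, f n (z n) = 0)
    (hφd : ∀ n, DifferentiableOn ℂ (φ n) (ball 0 1)) (hφm : ∀ n, MapsTo (φ n) (ball 0 1) U)
    (hφ0 : ∀ n, φ n 0 = z n)
    (hder : Tendsto (fun n => ‖deriv (f n) (z n)‖ * ‖deriv (φ n) 0‖) atTop (𝓝 1)) :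
    ∃ Φ Ψ : ℂ → ℂ, DifferentiableOn ℂ Φ (ball 0 1) ∧ DifferentiableOn ℂ Ψ U ∧
      MapsTo Φ (ball 0 1) U ∧ MapsTo Ψ U (ball 0 1) ∧
      (∀ ζ ∈ ball (0 : ℂ) 1, Ψ (Φ ζ) = ζ) ∧ (∀ z ∈ U, Φ (Ψ z) = z) := by
  have h0m : (0 : ℂ) ∈ ball (0 : ℂ) 1 := mem_ball_self one_pos
  have hzU : ∀ n, z n ∈ U := fun n => by rw [← hφ0 n]; exact hφm n h0m
  choose γ hγ k hk hγk using fun n => hcov (z n) (hzU n)
  choose γ' hγ' hinv1 hinv2 using fun n => hΓi (γ n) (hγ n)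
  obtain ⟨k', hk'K, a, ha, hak⟩ := hK.tendsto_subseq hk
  have hkU : ∀ n, k n ∈ U := fun n => hKU (hk n)
  -- derivative identity
  have hdd : ∀ n, deriv (γ' n) (z n) * deriv (γ n) (k n) = 1 := by
    intro n
    have h1 : HasDerivAt (γ' n) (deriv (γ' n) (z n)) (γ n (k n)) := by
      rw [hγk n]
      exact ((hΓd _ (hγ' n)).differentiableAt (hUo.mem_nhds (hzU n))).hasDerivAt
    have h2 : HasDerivAt (γ n) (deriv (γ n) (k n)) (k n) :=
      ((hΓd _ (hγ n)).differentiableAt (hUo.mem_nhds (hkU n))).hasDerivAt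
    have h3 := h1.comp (k n) h2
    have h4 : (γ' n ∘ γ n) =ᶠ[𝓝 (k n)] id := by
      filter_upwards [hUo.mem_nhds (hkU n)] with w hw
      exact hinv1 n w hw
    have h5 : HasDerivAt (γ' n ∘ γ n) 1 (k n) := (hasDerivAt_id (k n)).congr_of_eventuallyEq h4
    exact h3.unique h5
  refine disc_of_sequences hUo hUc hUb
    (taut_of_cocompact hUo hUb hΓd hΓm hΓi hK hKU hcov)
    (fun n => f (a n) ∘ γ (a n)) (fun n => γ' (a n) ∘ φ (a n)) (fun n => k (a n)) k'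
    (hKU hk'K) hak ?_ ?_ ?_ ?_ ?_ ?_ ?_
  · exact fun n => (hfd (a n)).comp (hΓd _ (hγ (a n))) (hΓm _ (hγ (a n)))
  · exact fun n => (hfm (a n)).comp (hΓm _ (hγ (a n)))
  · intro n
    simp only [Function.comp, hγk, hf0]
  · exact fun n => (hΓd _ (hγ' (a n))).comp (hφd (a n)) (hφm (a n))
  · exact fun n => (hΓm _ (hγ' (a n))).comp (hφm (a n))
  · intro n
    simp only [Function.comp, hφ0]
    rw [← hγk (a n), hinv1 (a n) _ (hkU (a n))]
  · have hval : ∀ n, ‖deriv (f n ∘ γ n) (k n)‖ * ‖deriv (γ' n ∘ φ n) 0‖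
        = ‖deriv (f n) (z n)‖ * ‖deriv (φ n) 0‖ := by
      intro n
      have h1 : HasDerivAt (f n) (deriv (f n) (z n)) (γ n (k n)) := by
        rw [hγk n]
        exact ((hfd n).differentiableAt (hUo.mem_nhds (hzU n))).hasDerivAt
      have h2 : HasDerivAt (γ n) (deriv (γ n) (k n)) (k n) :=
        ((hΓd _ (hγ n)).differentiableAt (hUo.mem_nhds (hkU n))).hasDerivAt
      have h3 : HasDerivAt (γ' n) (deriv (γ' n) (z n)) (φ n 0) := by
        rw [hφ0 n]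
        exact ((hΓd _ (hγ' n)).differentiableAt (hUo.mem_nhds (hzU n))).hasDerivAt
      have h4 : HasDerivAt (φ n) (deriv (φ n) 0) 0 :=
        ((hφd n).differentiableAt (isOpen_ball.mem_nhds h0m)).hasDerivAt
      rw [(h1.comp (k n) h2).deriv, (h3.comp 0 h4).deriv, norm_mul, norm_mul]
      have h5 : ‖deriv (γ' n) (z n)‖ * ‖deriv (γ n) (k n)‖ = 1 := by
        rw [← norm_mul, hdd n, norm_one]
      calc ‖deriv (f n) (z n)‖ * ‖deriv (γ n) (k n)‖ * (‖deriv (γ' n) (z n)‖ * ‖deriv (φ n) 0‖)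
          = ‖deriv (f n) (z n)‖ * ‖deriv (φ n) 0‖ *
            (‖deriv (γ' n) (z n)‖ * ‖deriv (γ n) (k n)‖) := by ring
        _ = _ := by rw [h5, mul_one]
    have := hder.comp ha.tendsto_atTop
    refine this.congr (fun n => ?_)
    exact (hval (a n)).symm

end Vale.Agent.Lib.P274
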