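import Mathlib

/-! The disc automorphisms `ζ ↦ (ζ + a) / (1 + a ζ)` with real parameter `0 ≤ a < 1`. -/

open Filter Topology Set Metric

namespace Vale.Agent.Lib.P274

/-- `mob a ζ = (ζ + a) / (1 + a ζ)`. -/
noncomputable def mob (a : ℝ) (ζ : ℂ) : ℂ := (ζ + a) / (1 + a * ζ)

lemma mob_den_ne {a : ℝ} (ha0 : 0 ≤ a) (ha1 : a < 1) {ζ : ℂ} (hζ : ‖ζ‖ < 1) :
    (1 + (a : ℂ) * ζ) ≠ 0 := by
  intro h
  have h1 : (a : ℂ) * ζ = -1 := by linear_combination h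
  have h2 : ‖(a : ℂ) * ζ‖ = 1 := by rw [h1]; simp
  rw [norm_mul, Complex.norm_real, Real.norm_of_nonneg ha0] at h2
  nlinarith [norm_nonneg ζ]

lemma mob_norm_lt {a : ℝ} (ha0 : 0 ≤ a) (ha1 : a < 1) {ζ : ℂ} (hζ : ‖ζ‖ < 1) :
    ‖mob a ζ‖ < 1 := by
  have hden := mob_den_ne ha0 ha1 hζ
  unfold mob
  rw [norm_div, div_lt_one (norm_pos_iff.2 hden)]
  have hsq : ‖ζ + a‖ ^ 2 < ‖1 + (a : ℂ) * ζ‖ ^ 2 := by
    have hz : ‖ζ‖ ^ 2 < 1 := by nlinarith [norm_nonneg ζ]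
    rw [Complex.sq_norm, Complex.normSq_apply] at hz
    rw [Complex.sq_norm, Complex.sq_norm, Complex.normSq_apply, Complex.normSq_apply]
    simp only [Complex.add_re, Complex.add_im, Complex.ofReal_re, Complex.ofReal_im, Complex.one_re,
      Complex.one_im, Complex.mul_re, Complex.mul_im, zero_mul, sub_zero, add_zero, zero_add]
    have h1 : 0 < (1 - a ^ 2) * (1 - (ζ.re * ζ.re + ζ.im * ζ.im)) := by
      apply mul_pos <;> nlinarith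
    nlinarith
  exact lt_of_pow_lt_pow_left₀ 2 (norm_nonneg _) hsq

lemma mob_hasDerivAt {a : ℝ} {ζ : ℂ} (hden : (1 + (a : ℂ) * ζ) ≠ 0) :
    HasDerivAt (mob a) ((1 - (a : ℂ) ^ 2) / (1 + a * ζ) ^ 2) ζ := by
  have h1 : HasDerivAt (fun ζ : ℂ => ζ + a) 1 ζ := (hasDerivAt_id ζ).add_const _
  have h2 : HasDerivAt (fun ζ : ℂ => 1 + (a : ℂ) * ζ) (a : ℂ) ζ := by
    simpa using ((hasDerivAt_id ζ).const_mul (a : ℂ)).const_add 1
  have h3 := h1.div h2 hden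
  have e : (1 * (1 + (a : ℂ) * ζ) - (ζ + a) * a) / (1 + (a : ℂ) * ζ) ^ 2
      = (1 - (a : ℂ) ^ 2) / (1 + a * ζ) ^ 2 := by
    congr 1
    ring
  rw [← e]
  exact h3

lemma mob_differentiableOn {a : ℝ} (ha0 : 0 ≤ a) (ha1 : a < 1) :
    DifferentiableOn ℂ (mob a) (ball 0 1) := by
  intro ζ hζ
  exact (mob_hasDerivAt (mob_den_ne ha0 ha1 (mem_ball_zero_iff.1 hζ))).differentiableAt.differentiableWithinAt

lemma mob_zero (a : ℝ) : mob a 0 = a := by simp [mob]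

lemma mob_neg (a : ℝ) : mob a (-(a : ℂ)) = 0 := by simp [mob]

end Vale.Agent.Lib.P274
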