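import Mathlib
import Vale.Agent.Lib.P274.Mobius
import Vale.Agent.Lib.P274.Cocompact

/-! Extremal sequences at a boundary point with an interior and an exterior tangent disc. -/

open Filter Topology Set Metric

namespace Vale.Agent.Lib.P274

section

variable (c c' : ℂ) (ρ ρ' : ℝ)

/-- unit vector from `c` to `c'` (when `dist c c' = ρ + ρ'`). -/
noncomputable def nu : ℂ := (c' - c) / ((ρ + ρ' : ℝ) : ℂ)

noncomputable def zpt (u : ℝ) : ℂ := c + ((ρ : ℂ) * nu c c' ρ ρ') * ((1 - u : ℝ) : ℂ)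

noncomputable def phi (u : ℝ) (ζ : ℂ) : ℂ := c + ((ρ : ℂ) * nu c c' ρ ρ') * mob (1 - u) ζ

noncomputable def eta (w : ℂ) : ℂ := ((ρ' : ℂ) * nu c c' ρ ρ') / (w - c')

noncomputable def ff (u : ℝ) (w : ℂ) : ℂ := mob (ρ' / (ρ' + ρ * u)) (eta c c' ρ ρ' w)

variable {c c' ρ ρ'}

lemma norm_nu (hρ : 0 < ρ) (hρ' : 0 < ρ') (htan : dist c c' = ρ + ρ') : ‖nu c c' ρ ρ'‖ = 1 := by
  unfold nu
  rw [norm_div, Complex.norm_real, Real.norm_of_nonneg (by positivity), ← dist_eq_norm, dist_comm,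
    htan, div_self (by positivity)]

lemma nu_mul (hρ : 0 < ρ) (hρ' : 0 < ρ') : ((ρ + ρ' : ℝ) : ℂ) * nu c c' ρ ρ' = c' - c := by
  unfold nu
  have : ((ρ + ρ' : ℝ) : ℂ) ≠ 0 := by
    exact_mod_cast (by positivity : (ρ + ρ') ≠ 0)
  field_simp

lemma phi_differentiableOn {u : ℝ} (hu0 : 0 < u) (hu1 : u < 1) :
    DifferentiableOn ℂ (phi c c' ρ ρ' u) (ball 0 1) := by
  unfold phi
  exact ((mob_differentiableOn (by linarith) (by linarith)).const_mul _).const_add _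

lemma phi_mapsTo (hρ : 0 < ρ) (hρ' : 0 < ρ') (htan : dist c c' = ρ + ρ') {u : ℝ} (hu0 : 0 < u)
    (hu1 : u < 1) : MapsTo (phi c c' ρ ρ' u) (ball 0 1) (ball c ρ) := by
  intro ζ hζ
  have h := mob_norm_lt (a := 1 - u) (by linarith) (by linarith) (mem_ball_zero_iff.1 hζ)
  rw [mem_ball, dist_eq_norm]
  unfold phi
  rw [add_sub_cancel_left, norm_mul, norm_mul, norm_nu hρ hρ' htan, Complex.norm_real,
    Real.norm_of_nonneg hρ.le, mul_one]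
  nlinarith

lemma phi_zero (u : ℝ) : phi c c' ρ ρ' u 0 = zpt c c' ρ ρ' u := by
  unfold phi zpt
  rw [mob_zero]

lemma norm_deriv_phi (hρ : 0 < ρ) (hρ' : 0 < ρ') (htan : dist c c' = ρ + ρ') {u : ℝ} (hu0 : 0 < u)
    (hu1 : u < 1) : ‖deriv (phi c c' ρ ρ' u) 0‖ = ρ * (u * (2 - u)) := by
  have hden : (1 + ((1 - u : ℝ) : ℂ) * 0) ≠ 0 := by simp
  have h1 := ((mob_hasDerivAt (a := 1 - u) (ζ := 0) hden).const_mul
    ((ρ : ℂ) * nu c c' ρ ρ')).const_add c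
  have h2 : deriv (phi c c' ρ ρ' u) 0 = _ := h1.deriv
  rw [h2]
  have e : (1 - (((1 - u : ℝ)) : ℂ) ^ 2) / (1 + ((1 - u : ℝ) : ℂ) * 0) ^ 2
      = ((u * (2 - u) : ℝ) : ℂ) := by
    push_cast
    ring
  rw [e, norm_mul, norm_mul, norm_nu hρ hρ' htan, Complex.norm_real, Complex.norm_real,
    Real.norm_of_nonneg hρ.le, Real.norm_of_nonneg (by nlinarith), mul_one]

lemma zpt_sub (hρ : 0 < ρ) (hρ' : 0 < ρ') (u : ℝ) :
    zpt c c' ρ ρ' u - c' = -(((ρ' + ρ * u : ℝ) : ℂ) * nu c c' ρ ρ') := by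
  have h := nu_mul (c := c) (c' := c') hρ hρ'
  unfold zpt
  push_cast at h ⊢
  linear_combination h

lemma nu_ne (hρ : 0 < ρ) (hρ' : 0 < ρ') (htan : dist c c' = ρ + ρ') : nu c c' ρ ρ' ≠ 0 := by
  intro h
  have := norm_nu hρ hρ' htan
  rw [h, norm_zero] at this
  exact zero_ne_one this

lemma eta_zpt (hρ : 0 < ρ) (hρ' : 0 < ρ') (htan : dist c c' = ρ + ρ') {u : ℝ} (hu0 : 0 < u) :
    eta c c' ρ ρ' (zpt c c' ρ ρ' u) = -((ρ' / (ρ' + ρ * u) : ℝ) : ℂ) := by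
  unfold eta
  rw [zpt_sub hρ hρ']
  have h1 := nu_ne hρ hρ' htan
  have h2 : ((ρ' + ρ * u : ℝ) : ℂ) ≠ 0 := by
    exact_mod_cast (by positivity : (ρ' + ρ * u) ≠ 0)
  push_cast at h2 ⊢
  field_simp

lemma ff_zpt (hρ : 0 < ρ) (hρ' : 0 < ρ') (htan : dist c c' = ρ + ρ') {u : ℝ} (hu0 : 0 < u) :
    ff c c' ρ ρ' u (zpt c c' ρ ρ' u) = 0 := by
  unfold ff
  rw [eta_zpt hρ hρ' htan hu0, mob_neg]

lemma norm_eta_lt (hρ : 0 < ρ) (hρ' : 0 < ρ') (htan : dist c c' = ρ + ρ') {w : ℂ}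
    (hw : ρ' < dist w c') : ‖eta c c' ρ ρ' w‖ < 1 := by
  unfold eta
  rw [norm_div, norm_mul, norm_nu hρ hρ' htan, Complex.norm_real, Real.norm_of_nonneg hρ'.le,
    mul_one, ← dist_eq_norm, div_lt_one (by linarith)]
  exact hw

lemma eta_hasDerivAt {w : ℂ} (hw : w - c' ≠ 0) :
    HasDerivAt (eta c c' ρ ρ') (-((ρ' : ℂ) * nu c c' ρ ρ') / (w - c') ^ 2) w := by
  have h1 : HasDerivAt (fun w : ℂ => w - c') 1 w := (hasDerivAt_id w).sub_const _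
  have h2 := (h1.inv hw).const_mul ((ρ' : ℂ) * nu c c' ρ ρ')
  have e : ((ρ' : ℂ) * nu c c' ρ ρ') * (-1 / (w - c') ^ 2)
      = -((ρ' : ℂ) * nu c c' ρ ρ') / (w - c') ^ 2 := by ring
  rw [← e]
  exact h2

lemma apos (hρ : 0 < ρ) (hρ' : 0 < ρ') {u : ℝ} (hu0 : 0 < u) :
    0 ≤ ρ' / (ρ' + ρ * u) ∧ ρ' / (ρ' + ρ * u) < 1 := by
  constructor
  · positivity
  · rw [div_lt_one (by positivity)]
    nlinarith [mul_pos hρ hu0]

lemma ff_hasDerivAt (hρ : 0 < ρ) (hρ' : 0 < ρ') (htan : dist c c' = ρ + ρ') {u : ℝ} (hu0 : 0 < u)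
    {w : ℂ} (hw : ρ' < dist w c') :
    HasDerivAt (ff c c' ρ ρ' u)
      ((1 - ((ρ' / (ρ' + ρ * u) : ℝ) : ℂ) ^ 2) /
        (1 + ((ρ' / (ρ' + ρ * u) : ℝ) : ℂ) * eta c c' ρ ρ' w) ^ 2 *
        (-((ρ' : ℂ) * nu c c' ρ ρ') / (w - c') ^ 2)) w := by
  have hw0 : w - c' ≠ 0 := by
    intro h
    rw [dist_eq_norm, h, norm_zero] at hw
    linarith
  have ha := apos hρ hρ' hu0
  have hden := mob_den_ne ha.1 ha.2 (norm_eta_lt hρ hρ' htan hw)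
  exact (mob_hasDerivAt hden).comp w (eta_hasDerivAt hw0)

lemma ff_mapsTo (hρ : 0 < ρ) (hρ' : 0 < ρ') (htan : dist c c' = ρ + ρ') {u : ℝ} (hu0 : 0 < u)
    {w : ℂ} (hw : ρ' < dist w c') : ff c c' ρ ρ' u w ∈ ball (0 : ℂ) 1 := by
  have ha := apos hρ hρ' hu0
  rw [mem_ball_zero_iff]
  exact mob_norm_lt ha.1 ha.2 (norm_eta_lt hρ hρ' htan hw)

lemma dist_zpt (hρ : 0 < ρ) (hρ' : 0 < ρ') (htan : dist c c' = ρ + ρ') {u : ℝ} (hu0 : 0 < u) :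
    dist (zpt c c' ρ ρ' u) c' = ρ' + ρ * u := by
  rw [dist_eq_norm, zpt_sub hρ hρ', norm_neg, norm_mul, norm_nu hρ hρ' htan, Complex.norm_real,
    Real.norm_of_nonneg (by positivity), mul_one]

lemma norm_deriv_ff (hρ : 0 < ρ) (hρ' : 0 < ρ') (htan : dist c c' = ρ + ρ') {u : ℝ}
    (hu0 : 0 < u) :
    ‖deriv (ff c c' ρ ρ' u) (zpt c c' ρ ρ' u)‖ = ρ' / (ρ * u * (2 * ρ' + ρ * u)) := by
  have hd := dist_zpt hρ hρ' htan hu0
  have hw : ρ' < dist (zpt c c' ρ ρ' u) c' := by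
    rw [hd]; nlinarith [mul_pos hρ hu0]
  rw [(ff_hasDerivAt hρ hρ' htan hu0 hw).deriv, eta_zpt hρ hρ' htan hu0]
  set t : ℝ := ρ' + ρ * u with ht
  have htp : 0 < t := by positivity
  have hlt : ρ' < t := by rw [ht]; nlinarith [mul_pos hρ hu0]
  have e1 : (1 - ((ρ' / t : ℝ) : ℂ) ^ 2) / (1 + ((ρ' / t : ℝ) : ℂ) * -((ρ' / t : ℝ) : ℂ)) ^ 2
      = ((1 / (1 - (ρ' / t) ^ 2) : ℝ) : ℂ) := by
    have h0 : (1 - (ρ' / t) ^ 2 : ℝ) ≠ 0 := by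
      have : (ρ' / t) ^ 2 < 1 := by
        have h1 : ρ' / t < 1 := (div_lt_one htp).2 hlt
        have h2 : 0 ≤ ρ' / t := by positivity
        nlinarith
      linarith
    have h0' : (1 - ((ρ' / t : ℝ) : ℂ) ^ 2) ≠ 0 := by
      exact_mod_cast h0
    have e2 : (1 + ((ρ' / t : ℝ) : ℂ) * -((ρ' / t : ℝ) : ℂ)) = 1 - ((ρ' / t : ℝ) : ℂ) ^ 2 := by ring
    rw [e2]
    push_cast
    push_cast at h0'
    field_simp
  rw [e1, norm_mul, norm_div, norm_neg, norm_mul, norm_pow, ← dist_eq_norm, hd,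
    norm_nu hρ hρ' htan, Complex.norm_real, Complex.norm_real, Real.norm_of_nonneg hρ'.le, mul_one]
  have h3 : 0 < 1 - (ρ' / t) ^ 2 := by
    have h1 : ρ' / t < 1 := (div_lt_one htp).2 hlt
    have h2 : 0 ≤ ρ' / t := by positivity
    nlinarith
  rw [Real.norm_of_nonneg (by positivity)]
  have h4 : ρ * u * (2 * ρ' + ρ * u) = t ^ 2 - ρ' ^ 2 := by rw [ht]; ring
  rw [h4]
  have h5 : 0 < t ^ 2 - ρ' ^ 2 := by nlinarith
  have h6 : 1 - (ρ' / t) ^ 2 = (t ^ 2 - ρ' ^ 2) / t ^ 2 := by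
    field_simp
  rw [h6]
  field_simp

end

end Vale.Agent.Lib.P274
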