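import Mathlib
import Vale.Agent.Lib.P274.Tangent

/-! A bounded plane domain with a cocompact family of automorphisms and one pair of tangent
interior / exterior discs is biholomorphic to the unit disc. -/

open Filter Topology Set Metric

namespace Vale.Agent.Lib.P274

lemma tendsto_ratio {ρ ρ' : ℝ} (hρ : 0 < ρ) (hρ' : 0 < ρ') :
    Tendsto (fun n : ℕ => ρ' / (ρ * (1 / ((n : ℝ) + 2)) * (2 * ρ' + ρ * (1 / ((n : ℝ) + 2)))) *
      (ρ * ((1 / ((n : ℝ) + 2)) * (2 - 1 / ((n : ℝ) + 2))))) atTop (𝓝 1) := by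
  have hu : Tendsto (fun n : ℕ => 1 / ((n : ℝ) + 2)) atTop (𝓝 0) := by
    have h1 : Tendsto (fun n : ℕ => ((n : ℝ) + 2)) atTop atTop :=
      tendsto_atTop_add_const_right _ _ tendsto_natCast_atTop_atTop
    have h2 := h1.inv_tendsto_atTop
    refine h2.congr (fun n => ?_)
    simp [one_div]
  have h2 : Tendsto (fun n : ℕ => ρ' * (2 - 1 / ((n : ℝ) + 2)) / (2 * ρ' + ρ * (1 / ((n : ℝ) + 2))))
      atTop (𝓝 (ρ' * (2 - 0) / (2 * ρ' + ρ * 0))) := by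
    apply Tendsto.div
    · exact (tendsto_const_nhds.sub hu).const_mul _
    · exact tendsto_const_nhds.add (hu.const_mul _)
    · simp only [mul_zero, add_zero]; positivity
  have h3 : ρ' * (2 - 0) / (2 * ρ' + ρ * 0) = 1 := by
    simp only [mul_zero, add_zero, sub_zero]
    field_simp
  rw [h3] at h2
  refine h2.congr (fun n => ?_)
  have hn : (0 : ℝ) < (n : ℝ) + 2 := by positivity
  have hpos : 0 < 2 * ρ' + ρ * (1 / ((n : ℝ) + 2)) := by positivity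
  field_simp

theorem disc_of_tangent {U : Set ℂ} {M : ℝ} {Γ : Set (ℂ → ℂ)} {K : Set ℂ}
    (hUo : IsOpen U) (hUc : IsPreconnected U) (hUb : ∀ z ∈ U, ‖z‖ ≤ M)
    (hΓd : ∀ γ ∈ Γ, DifferentiableOn ℂ γ U) (hΓm : ∀ γ ∈ Γ, MapsTo γ U U)
    (hΓi : ∀ γ ∈ Γ, ∃ γ' ∈ Γ, (∀ z ∈ U, γ' (γ z) = z) ∧ (∀ z ∈ U, γ (γ' z) = z))
    (hK : IsCompact K) (hKU : K ⊆ U) (hcov : ∀ z ∈ U, ∃ γ ∈ Γ, ∃ k ∈ K, γ k = z)
    {c c' : ℂ} {ρ ρ' : ℝ} (hρ : 0 < ρ) (hρ' : 0 < ρ') (htan : dist c c' = ρ + ρ')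
    (hin : ball c ρ ⊆ U) (hout : Disjoint U (closedBall c' ρ')) :
    ∃ Φ Ψ : ℂ → ℂ, DifferentiableOn ℂ Φ (ball 0 1) ∧ DifferentiableOn ℂ Ψ U ∧
      MapsTo Φ (ball 0 1) U ∧ MapsTo Ψ U (ball 0 1) ∧
      (∀ ζ ∈ ball (0 : ℂ) 1, Ψ (Φ ζ) = ζ) ∧ (∀ z ∈ U, Φ (Ψ z) = z) := by
  have hfar : ∀ w ∈ U, ρ' < dist w c' := by
    intro w hw
    by_contra h
    exact (Set.disjoint_left.1 hout hw) (mem_closedBall.2 (not_lt.1 h))
  have hu0 : ∀ n : ℕ, 0 < 1 / ((n : ℝ) + 2) := fun n => by positivity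
  have hu1 : ∀ n : ℕ, 1 / ((n : ℝ) + 2) < 1 := fun n => by
    rw [div_lt_one (by positivity)]
    have : (0 : ℝ) ≤ n := Nat.cast_nonneg n
    linarith
  refine disc_of_cocompact hUo hUc hUb hΓd hΓm hΓi hK hKU hcov
    (fun n => ff c c' ρ ρ' (1 / ((n : ℝ) + 2))) (fun n => phi c c' ρ ρ' (1 / ((n : ℝ) + 2)))
    (fun n => zpt c c' ρ ρ' (1 / ((n : ℝ) + 2))) ?_ ?_ ?_ ?_ ?_ ?_ ?_
  · intro n w hw
    exact (ff_hasDerivAt hρ hρ' htan (hu0 n) (hfar w hw)).differentiableAt.differentiableWithinAt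
  · intro n w hw
    exact ff_mapsTo hρ hρ' htan (hu0 n) (hfar w hw)
  · exact fun n => ff_zpt hρ hρ' htan (hu0 n)
  · exact fun n => phi_differentiableOn (hu0 n) (hu1 n)
  · exact fun n => (phi_mapsTo hρ hρ' htan (hu0 n) (hu1 n)).mono_right hin
  · exact fun n => phi_zero _
  · refine (tendsto_ratio hρ hρ').congr (fun n => ?_)
    rw [norm_deriv_ff hρ hρ' htan (hu0 n), norm_deriv_phi hρ hρ' htan (hu0 n) (hu1 n)]

end Vale.Agent.Lib.P274
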